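import Mathlib

/-!
# P162, part (C), step 1: closed walks along the cycles of a permutation

`|∑_z ∏_a F_a (z a) (z (σ a))| ≤ ∏_a (T_a if a is a fixed point of σ, B_a otherwise)` where `B_a`
bounds the Frobenius norm of `F_a` and `T_a` bounds its trace.
-/

open Finset Equiv

namespace Vale.Agent.P162.H561

variable {κ : Type*} [Fintype κ]

lemma frob_mul (F G : κ → κ → ℝ) {A B : ℝ} (hF : ∑ i, ∑ j, F i j ^ 2 ≤ A ^ 2)
    (hG : ∑ i, ∑ j, G i j ^ 2 ≤ B ^ 2) :
    ∑ p, ∑ q, (∑ i, F p i * G i q) ^ 2 ≤ (A * B) ^ 2 := by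
  have h1 : ∀ p q, (∑ i, F p i * G i q) ^ 2 ≤ (∑ i, F p i ^ 2) * ∑ i, G i q ^ 2 :=
    fun p q => Finset.sum_mul_sq_le_sq_mul_sq _ _ _
  calc ∑ p, ∑ q, (∑ i, F p i * G i q) ^ 2
      ≤ ∑ p, ∑ q, (∑ i, F p i ^ 2) * ∑ i, G i q ^ 2 :=
        Finset.sum_le_sum fun p _ => Finset.sum_le_sum fun q _ => h1 p q
    _ = (∑ p, ∑ i, F p i ^ 2) * ∑ q, ∑ i, G i q ^ 2 := by
        rw [Finset.sum_mul_sum]
    _ = (∑ p, ∑ i, F p i ^ 2) * ∑ i, ∑ q, G i q ^ 2 := by
        rw [Finset.sum_comm (f := fun q i => G i q ^ 2)]
    _ ≤ A ^ 2 * B ^ 2 := by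
        apply mul_le_mul hF hG _ (sq_nonneg _)
        exact Finset.sum_nonneg fun i _ => Finset.sum_nonneg fun j _ => sq_nonneg _
    _ = (A * B) ^ 2 := by ring

lemma trace_mul (F G : κ → κ → ℝ) {A B : ℝ} (hA : 0 ≤ A) (hB : 0 ≤ B)
    (hF : ∑ i, ∑ j, F i j ^ 2 ≤ A ^ 2) (hG : ∑ i, ∑ j, G i j ^ 2 ≤ B ^ 2) :
    |∑ p, ∑ i, F p i * G i p| ≤ A * B := by
  apply abs_le_of_sq_le_sq _ (mul_nonneg hA hB)
  have h1 : (∑ x : κ × κ, F x.1 x.2 * G x.2 x.1) ^ 2
      ≤ (∑ x : κ × κ, F x.1 x.2 ^ 2) * ∑ x : κ × κ, G x.2 x.1 ^ 2 :=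
    Finset.sum_mul_sq_le_sq_mul_sq _ _ _
  rw [Fintype.sum_prod_type, Fintype.sum_prod_type, Fintype.sum_prod_type] at h1
  simp only at h1
  rw [Finset.sum_comm (f := fun q i => G i q ^ 2)] at h1
  calc (∑ p, ∑ i, F p i * G i p) ^ 2 ≤ _ := h1
    _ ≤ A ^ 2 * B ^ 2 := by
        apply mul_le_mul hF hG _ (sq_nonneg _)
        exact Finset.sum_nonneg fun i _ => Finset.sum_nonneg fun j _ => sq_nonneg _
    _ = (A * B) ^ 2 := by ring

/-- The statement proved by induction on the number of points. -/
def WalkBound (κ : Type*) [Fintype κ] (α : Type*) [Fintype α] [DecidableEq α] : Prop :=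
  ∀ (σ : Perm α) (F : α → κ → κ → ℝ) (B T : α → ℝ),
    (∀ a, 0 ≤ B a) → (∀ a, 0 ≤ T a) →
    (∀ a, ∑ i, ∑ j, F a i j ^ 2 ≤ B a ^ 2) → (∀ a, |∑ i, F a i i| ≤ T a) →
    |∑ z : α → κ, ∏ a, F a (z a) (z (σ a))| ≤
      ∏ a, (if σ a = a then T a else B a)

lemma walkBound_equiv {α β : Type*} [Fintype α] [Fintype β] [DecidableEq α] [DecidableEq β]
    (e : α ≃ β)
    (h : WalkBound κ α) : WalkBound κ β := by
  intro σ F B T hB0 hT0 hB hT
  have h1 := h ((e.trans σ).trans e.symm) (fun a => F (e a)) (fun a => B (e a)) (fun a => T (e a))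
    (fun a => hB0 _) (fun a => hT0 _) (fun a => hB _) (fun a => hT _)
  have h2 : ∑ z : α → κ, ∏ a, F (e a) (z a) (z (((e.trans σ).trans e.symm) a))
      = ∑ z : β → κ, ∏ a, F a (z a) (z (σ a)) := by
    apply Fintype.sum_equiv (Equiv.arrowCongr e (Equiv.refl κ))
    intro z
    rw [← Equiv.prod_comp e]
    apply Finset.prod_congr rfl
    intro a _
    simp [Equiv.arrowCongr]
  have h3 : (∏ a, (if ((e.trans σ).trans e.symm) a = a then T (e a) else B (e a)))
      = ∏ a, (if σ a = a then T a else B a) := by
    rw [← Equiv.prod_comp e]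
    apply Finset.prod_congr rfl
    intro a _
    have : (((e.trans σ).trans e.symm) a = a) ↔ σ (e a) = e a := by
      simp [Equiv.symm_apply_eq]
    simp only [this]
  rw [h2, h3] at h1
  exact h1

lemma walkBound_option {α : Type*} [Fintype α] [DecidableEq α] (h : WalkBound κ α) :
    WalkBound κ (Option α) := by
  intro σ F B T hB0 hT0 hB hT
  have hsum : ∀ f : (Option α → κ) → ℝ, ∑ z, f z
      = ∑ i : κ, ∑ w : α → κ, f (fun o => o.elim i w) := by
    intro f
    rw [← Fintype.sum_prod_type (f := fun p : κ × (α → κ) => f (fun o => o.elim p.1 p.2))]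
    apply Fintype.sum_equiv
      (Equiv.piOptionEquivProd (α := α) (β := fun _ => κ))
    intro z
    congr 1
    funext o
    cases o <;> rfl
  rw [hsum]
  by_cases hn : σ none = none
  · -- `none` is a fixed point
    have hτ : ∀ a, σ (some a) = some (removeNone σ a) := by
      intro a
      symm
      apply removeNone_some
      have : σ (some a) ≠ none := by
        intro h'
        rw [← hn] at h'
        exact absurd (σ.injective h') (by simp)
      exact ⟨_, (Option.ne_none_iff_exists'.1 this).choose_spec⟩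
    have h1 := h (removeNone σ) (fun a => F (some a)) (fun a => B (some a)) (fun a => T (some a))
      (fun a => hB0 _) (fun a => hT0 _) (fun a => hB _) (fun a => hT _)
    have h2 : ∑ i : κ, ∑ w : α → κ, ∏ a : Option α, F a (a.elim i w) ((σ a).elim i w)
        = (∑ i, F none i i) * ∑ w : α → κ, ∏ a, F (some a) (w a) (w (removeNone σ a)) := by
      rw [Finset.sum_mul_sum]
      apply Finset.sum_congr rfl
      intro i _
      apply Finset.sum_congr rfl
      intro w _
      rw [Fintype.prod_option, hn]
      simp [hτ]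
    rw [h2, Fintype.prod_option, if_pos hn, abs_mul]
    refine mul_le_mul (hT none) (h1.trans (le_of_eq ?_)) (abs_nonneg _) (hT0 _)
    apply Finset.prod_congr rfl
    intro a _
    rw [hτ]
    by_cases hh : removeNone σ a = a
    · simp [hh]
    · simp [hh]
  · -- `none` is not a fixed point
    obtain ⟨b, hb⟩ := Option.ne_none_iff_exists'.1 hn
    obtain ⟨a0, ha0⟩ : ∃ a0, σ (some a0) = none := by
      obtain ⟨o, ho⟩ := σ.surjective none
      cases o with
      | none => exact absurd ho hn
      | some a => exact ⟨a, ho⟩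
    set τ := removeNone σ with hτdef
    have hτ0 : τ a0 = b := by
      have := removeNone_none (e := σ) ha0
      rw [hb] at this
      exact Option.some_injective _ this
    have hτ : ∀ a, a ≠ a0 → σ (some a) = some (τ a) := by
      intro a ha
      symm
      apply removeNone_some
      have : σ (some a) ≠ none := by
        intro h'
        rw [← ha0] at h'
        exact ha (Option.some_injective _ (σ.injective h'))
      exact ⟨_, (Option.ne_none_iff_exists'.1 this).choose_spec⟩
    let F' : α → κ → κ → ℝ := fun a => if a = a0 then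
      (fun p q => ∑ i, F (some a0) p i * F none i q) else F (some a)
    let B' : α → ℝ := fun a => if a = a0 then B (some a0) * B none else B (some a)
    let T' : α → ℝ := fun a => if a = a0 then B (some a0) * B none else T (some a)
    have h1 := h τ F' B' T'
      (fun a => by
        by_cases ha : a = a0
        · simp only [B', ha, if_true]; exact mul_nonneg (hB0 _) (hB0 _)
        · simp only [B', ha, if_false]; exact hB0 _)
      (fun a => by
        by_cases ha : a = a0
        · simp only [T', ha, if_true]; exact mul_nonneg (hB0 _) (hB0 _)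
        · simp only [T', ha, if_false]; exact hT0 _)
      (fun a => by
        by_cases ha : a = a0
        · simp only [F', B', ha, if_true]; exact frob_mul _ _ (hB _) (hB _)
        · simp only [F', B', ha, if_false]; exact hB _)
      (fun a => by
        by_cases ha : a = a0
        · simp only [F', T', ha, if_true]
          exact trace_mul _ _ (hB0 _) (hB0 _) (hB _) (hB _)
        · simp only [F', T', ha, if_false]; exact hT _)
    have h2 : ∑ i : κ, ∑ w : α → κ, ∏ a : Option α, F a (a.elim i w) ((σ a).elim i w)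
        = ∑ w : α → κ, ∏ a, F' a (w a) (w (τ a)) := by
      rw [Finset.sum_comm]
      apply Finset.sum_congr rfl
      intro w _
      have e1 : ∀ i, ∏ a : Option α, F a (a.elim i w) ((σ a).elim i w)
          = (F (some a0) (w a0) i * F none i (w b)) *
            ∏ a ∈ univ.erase a0, F (some a) (w a) (w (τ a)) := by
        intro i
        rw [Fintype.prod_option, ← Finset.mul_prod_erase univ _ (mem_univ a0), hb, ha0]
        have : ∏ x ∈ univ.erase a0, F (some x) ((some x).elim i w) ((σ (some x)).elim i w)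
            = ∏ a ∈ univ.erase a0, F (some a) (w a) (w (τ a)) := by
          apply Finset.prod_congr rfl
          intro a ha
          rw [hτ a (Finset.ne_of_mem_erase ha)]
          simp
        rw [this]
        simp only [Option.elim]
        ring
      simp_rw [e1]
      rw [← Finset.sum_mul, ← Finset.mul_prod_erase univ _ (mem_univ a0), hτ0]
      congr 1
      · simp [F']
      · apply Finset.prod_congr rfl
        intro a ha
        simp [F', Finset.ne_of_mem_erase ha]
    rw [h2]
    refine h1.trans (le_of_eq ?_)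
    rw [Fintype.prod_option, if_neg hn, ← Finset.mul_prod_erase univ _ (mem_univ a0),
      ← Finset.mul_prod_erase univ (fun a => if σ (some a) = some a then T (some a)
        else B (some a)) (mem_univ a0)]
    have e2 : (if τ a0 = a0 then T' a0 else B' a0) = B (some a0) * B none := by
      simp [T', B']
    have e3 : (if σ (some a0) = some a0 then T (some a0) else B (some a0)) = B (some a0) := by
      rw [ha0]; simp
    have e4 : ∏ x ∈ univ.erase a0, (if τ x = x then T' x else B' x)
        = ∏ a ∈ univ.erase a0, (if σ (some a) = some a then T (some a) else B (some a)) := by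
      apply Finset.prod_congr rfl
      intro a ha
      have ha' := Finset.ne_of_mem_erase ha
      rw [hτ a ha']
      by_cases hh : τ a = a
      · simp [hh, T', ha']
      · simp [hh, B', ha']
    rw [e4, e3]
    rw [e2]
    ring

theorem walkBound (α : Type*) [Fintype α] [DecidableEq α] : WalkBound κ α := by
  have key : ∀ n : ℕ, WalkBound κ (Fin n) := by
    intro n
    induction n with
    | zero =>
      intro σ F B T _ _ _ _
      simp
    | succ n ih =>
      exact walkBound_equiv (finSuccEquiv n).symm (walkBound_option ih)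
  exact walkBound_equiv (Fintype.equivFin α).symm (key _)

/-- Uniform version. -/
theorem sum_walk_le {α : Type*} [Fintype α] [DecidableEq α] (σ : Perm α) (Y : κ → κ → ℝ)
    {t : ℝ} (ht : 0 ≤ t) (hY : ∑ i, ∑ j, Y i j ^ 2 ≤ 1) (hT : |∑ i, Y i i| ≤ t) :
    ∑ z : α → κ, ∏ a, Y (z a) (z (σ a)) ≤ t ^ (univ.filter fun a => σ a = a).card := by
  have h := walkBound (κ := κ) α σ (fun _ => Y) (fun _ => 1) (fun _ => t) (fun _ => zero_le_one)
    (fun _ => ht) (fun _ => by simpa using hY) (fun _ => hT)
  refine (le_abs_self _).trans (h.trans (le_of_eq ?_))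
  rw [Finset.card_filter, ← Finset.prod_pow_eq_pow_sum]
  apply Finset.prod_congr rfl
  intro a _
  by_cases hh : σ a = a <;> simp [hh]

end Vale.Agent.P162.H561
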