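import Mathlib
import Vale.Agent.P162.H561.Walk

/-!
# P162, stage 2, part (C): the colouring lemma

For permutations `g₁, g₂` of `N` points with `f₁, f₂` fixed points, the average over `x` of the
number of `K`-colourings invariant under `g₁ x g₂ x⁻¹` is at most
`(e N (N+1))^(K^2) * (√K)^(f₁+f₂)`.
-/

open Finset Equiv Nat

namespace Vale.Agent.P162.H561

variable {α : Type*} [Fintype α] [DecidableEq α]

/-- The number of `K`-colourings of `α` invariant under `h` (`= K ^ number of cycles`). -/
def FixK (K : ℕ) (h : Perm α) : ℕ := Fintype.card {z : α → Fin K // ∀ a, z (h a) = z a}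

/-- The number of fixed points. -/
def fixc (g : Perm α) : ℕ := (univ.filter fun a => g a = a).card

/-- The number of permutations `x` with `u ∘ x = v`. -/
lemma card_comp_le {β : Type*} [Fintype β] [DecidableEq β] (u v : α → β) :
    (univ.filter fun x : Perm α => u ∘ x = v).card ≤
      if (∀ p, (univ.filter fun a => u a = p).card = (univ.filter fun a => v a = p).card) then
        ∏ p, ((univ.filter fun a => u a = p).card)! else 0 := by
  rcases (univ.filter fun x : Perm α => u ∘ x = v).eq_empty_or_nonempty with he | ⟨x0, hx0⟩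
  · rw [he]; simp
  · have hx0' : u ∘ x0 = v := (Finset.mem_filter.1 hx0).2
    have hfib : ∀ p, (univ.filter fun a => u a = p).card = (univ.filter fun a => v a = p).card := by
      intro p
      symm
      apply Finset.card_bij (fun a _ => x0 a)
      · intro a ha
        simp only [Finset.mem_filter, Finset.mem_univ, true_and] at ha ⊢
        rw [← ha, ← hx0']; rfl
      · intro a _ b _ h
        exact x0.injective h
      · intro b hb
        simp only [Finset.mem_filter, Finset.mem_univ, true_and] at hb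
        refine ⟨x0.symm b, ?_, by simp⟩
        simp only [Finset.mem_filter, Finset.mem_univ, true_and]
        rw [← hx0']; simp [hb]
    rw [if_pos hfib]
    have h1 := DomMulAct.stabilizer_card u
    have h2 : (univ.filter fun x : Perm α => u ∘ x = v).card
        = Fintype.card {g : Perm α // u ∘ g = u} := by
      rw [Fintype.card_subtype]
      apply Finset.card_bij (fun x _ => x * x0⁻¹)
      · intro x hx
        simp only [Finset.mem_filter, Finset.mem_univ, true_and] at hx ⊢
        funext a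
        have h3 := congrFun hx (x0⁻¹ a)
        have h4 := congrFun hx0' (x0⁻¹ a)
        simp only [Function.comp_apply, Perm.mul_apply] at h3 h4 ⊢
        rw [h3, ← h4]
        simp
      · intro x _ y _ h
        exact mul_right_cancel h
      · intro y hy
        simp only [Finset.mem_filter, Finset.mem_univ, true_and] at hy
        refine ⟨y * x0, ?_, by simp⟩
        simp only [Finset.mem_filter, Finset.mem_univ, true_and]
        funext a
        have h3 := congrFun hy (x0 a)
        have h4 := congrFun hx0' a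
        simp only [Function.comp_apply, Perm.mul_apply] at h3 h4 ⊢
        rw [h3, h4]
    rw [h2, h1]
    apply le_of_eq
    apply Finset.prod_congr rfl
    intro p _
    rw [Fintype.card_subtype]

lemma fact_mul_exp_le {n : ℕ} (hn : 1 ≤ n) :
    (n ! : ℝ) * Real.exp n ≤ Real.exp 1 * n * (n : ℝ) ^ n := by
  induction n, hn using Nat.le_induction with
  | base => simp
  | succ n hn ih =>
    have hn0 : (0 : ℝ) < n := by exact_mod_cast hn
    have h1 : (n : ℝ) / (n + 1) ≤ Real.exp (-(1 / ((n : ℝ) + 1))) := by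
      have := Real.add_one_le_exp (-(1 / ((n : ℝ) + 1)))
      refine le_trans (le_of_eq ?_) this
      field_simp
      ring
    have h2 : ((n : ℝ) / (n + 1)) ^ (n + 1) ≤ Real.exp (-1) := by
      calc ((n : ℝ) / (n + 1)) ^ (n + 1) ≤ Real.exp (-(1 / ((n : ℝ) + 1))) ^ (n + 1) :=
            pow_le_pow_left₀ (by positivity) h1 _
        _ = Real.exp (-1) := by
            rw [← Real.exp_nat_mul]
            congr 1
            push_cast
            field_simp
    have h3 : Real.exp 1 * (n : ℝ) ^ (n + 1) ≤ ((n : ℝ) + 1) ^ (n + 1) := by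
      rw [div_pow, div_le_iff₀ (by positivity)] at h2
      calc Real.exp 1 * (n : ℝ) ^ (n + 1)
          ≤ Real.exp 1 * (Real.exp (-1) * ((n : ℝ) + 1) ^ (n + 1)) :=
            mul_le_mul_of_nonneg_left h2 (Real.exp_pos _).le
        _ = (Real.exp 1 * Real.exp (-1)) * ((n : ℝ) + 1) ^ (n + 1) := by ring
        _ = ((n : ℝ) + 1) ^ (n + 1) := by rw [← Real.exp_add]; simp
    rw [Nat.factorial_succ]
    push_cast
    rw [Real.exp_add]
    calc ((n : ℝ) + 1) * (n ! : ℝ) * (Real.exp n * Real.exp 1)
        = ((n : ℝ) + 1) * Real.exp 1 * ((n ! : ℝ) * Real.exp n) := by ring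
      _ ≤ ((n : ℝ) + 1) * Real.exp 1 * (Real.exp 1 * n * (n : ℝ) ^ n) :=
          mul_le_mul_of_nonneg_left ih (by positivity)
      _ = ((n : ℝ) + 1) * Real.exp 1 * (Real.exp 1 * (n : ℝ) ^ (n + 1)) := by ring
      _ ≤ ((n : ℝ) + 1) * Real.exp 1 * (((n : ℝ) + 1) ^ (n + 1)) :=
          mul_le_mul_of_nonneg_left h3 (by positivity)
      _ = Real.exp 1 * ((n : ℝ) + 1) * ((n : ℝ) + 1) ^ (n + 1) := by ring

lemma pow_le_fact_mul_exp (N : ℕ) : (N : ℝ) ^ N ≤ (N ! : ℝ) * Real.exp N := by
  have h := Real.pow_div_factorial_le_exp (x := (N : ℝ)) (Nat.cast_nonneg _) N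
  rw [div_le_iff₀ (by positivity)] at h
  linarith

lemma prod_fact_le {β : Type*} [Fintype β] (n : β → ℕ) {N : ℕ} (hN : 1 ≤ N)
    (hn : ∑ p, n p = N) :
    (∏ p, ((n p)! : ℝ)) * (N : ℝ) ^ N ≤
      (Real.exp 1 * N) ^ (Fintype.card β) * (N ! : ℝ) * ∏ p, (n p : ℝ) ^ (n p) := by
  have hN1 : (1 : ℝ) ≤ N := by exact_mod_cast hN
  have h1 : ∀ p, ((n p)! : ℝ) * Real.exp (n p) ≤ (Real.exp 1 * N) * (n p : ℝ) ^ (n p) := by
    intro p
    rcases Nat.eq_zero_or_pos (n p) with h0 | h0
    · rw [h0]
      simp only [Nat.factorial_zero, Nat.cast_one, Nat.cast_zero, Real.exp_zero, pow_zero, mul_one]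
      have := Real.one_le_exp (zero_le_one (α := ℝ))
      nlinarith
    · refine (fact_mul_exp_le h0).trans ?_
      apply mul_le_mul_of_nonneg_right _ (by positivity)
      apply mul_le_mul_of_nonneg_left _ (Real.exp_pos _).le
      have : n p ≤ N := by
        rw [← hn]
        exact Finset.single_le_sum (f := n) (fun _ _ => Nat.zero_le _) (Finset.mem_univ p)
      exact_mod_cast this
  have h2 : (∏ p, ((n p)! : ℝ)) * Real.exp N ≤
      (Real.exp 1 * N) ^ (Fintype.card β) * ∏ p, (n p : ℝ) ^ (n p) := by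
    have e1 : Real.exp N = ∏ p, Real.exp (n p) := by
      rw [← Real.exp_sum, ← hn]
      push_cast
      rfl
    rw [e1, ← Finset.prod_mul_distrib]
    calc ∏ p, ((n p)! : ℝ) * Real.exp (n p)
        ≤ ∏ p, (Real.exp 1 * N) * (n p : ℝ) ^ (n p) :=
          Finset.prod_le_prod (fun p _ => by positivity) (fun p _ => h1 p)
      _ = (Real.exp 1 * N) ^ (Fintype.card β) * ∏ p, (n p : ℝ) ^ (n p) := by
          rw [Finset.prod_mul_distrib, Finset.prod_const, Finset.card_univ]
  have h3 := pow_le_fact_mul_exp N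
  have hpos : (0 : ℝ) < Real.exp N := Real.exp_pos _
  have h4 : ((∏ p, ((n p)! : ℝ)) * (N : ℝ) ^ N) * Real.exp N ≤
      ((Real.exp 1 * N) ^ (Fintype.card β) * (N ! : ℝ) * ∏ p, (n p : ℝ) ^ (n p)) * Real.exp N := by
    calc ((∏ p, ((n p)! : ℝ)) * (N : ℝ) ^ N) * Real.exp N
        = ((∏ p, ((n p)! : ℝ)) * Real.exp N) * (N : ℝ) ^ N := by ring
      _ ≤ ((Real.exp 1 * N) ^ (Fintype.card β) * ∏ p, (n p : ℝ) ^ (n p)) *
            ((N ! : ℝ) * Real.exp N) := by
          apply mul_le_mul h2 h3 (by positivity) (by positivity)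
      _ = _ := by ring
  exact le_of_mul_le_mul_right h4 hpos

section count
variable {K : ℕ}

/-- Pair statistics of a colouring `z` along `g`. -/
def st (g : Perm α) (z : α → Fin K) (p : Fin K × Fin K) : ℕ :=
  (univ.filter fun a => (z a, z (g a)) = p).card

omit [DecidableEq α] in
lemma st_sum (g : Perm α) (z : α → Fin K) : ∑ p, st g z p = Fintype.card α := by
  unfold st
  rw [← Finset.card_eq_sum_card_fiberwise (f := fun a => (z a, z (g a))) (t := univ)]
  · rfl
  · intro _ _; simp

/-- The number of colourings with given pair statistics. -/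
def S (g : Perm α) (n : Fin K × Fin K → ℕ) : ℕ := (univ.filter fun z : α → Fin K => st g z = n).card

lemma S_bound (hN : 1 ≤ Fintype.card α) (g : Perm α) (n : Fin K × Fin K → ℕ) :
    (S g n : ℝ) * ∏ p, (√((n p : ℝ) / Fintype.card α)) ^ (n p) ≤ (√K) ^ fixc g := by
  set N := Fintype.card α with hNdef
  have hNpos : (0 : ℝ) < N := by exact_mod_cast hN
  rcases Nat.eq_zero_or_pos (S g n) with h0 | h0
  · rw [h0]; simp
  · obtain ⟨z0, hz0⟩ := Finset.card_pos.1 h0
    have hz0' : st g z0 = n := (Finset.mem_filter.1 hz0).2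
    have hsum : ∑ p, n p = N := by rw [← hz0']; exact st_sum g z0
    let Y : Fin K → Fin K → ℝ := fun i j => √((n (i, j) : ℝ) / N)
    have hY : ∑ i, ∑ j, Y i j ^ 2 ≤ 1 := by
      have e1 : ∀ i j, Y i j ^ 2 = (n (i, j) : ℝ) / N := by
        intro i j
        exact Real.sq_sqrt (by positivity)
      simp_rw [e1]
      rw [← Fintype.sum_prod_type (f := fun p : Fin K × Fin K => (n p : ℝ) / N),
        ← Finset.sum_div, ← Nat.cast_sum, hsum]
      exact (div_self hNpos.ne').le
    have hT : |∑ i, Y i i| ≤ √K := by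
      apply Real.abs_le_sqrt
      have h1 : (∑ i : Fin K, (1 : ℝ) * Y i i) ^ 2 ≤ (∑ i : Fin K, (1 : ℝ) ^ 2) * ∑ i, Y i i ^ 2 :=
        Finset.sum_mul_sq_le_sq_mul_sq _ _ _
      simp only [one_mul, one_pow, Finset.sum_const, Finset.card_univ, Fintype.card_fin,
        nsmul_eq_mul, mul_one] at h1
      refine h1.trans ?_
      have h2 : ∑ i, Y i i ^ 2 ≤ 1 := by
        refine le_trans ?_ hY
        apply Finset.sum_le_sum
        intro i _
        exact Finset.single_le_sum (f := fun j => Y i j ^ 2) (fun j _ => sq_nonneg _)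
          (Finset.mem_univ i)
      calc (K : ℝ) * ∑ i, Y i i ^ 2 ≤ K * 1 :=
            mul_le_mul_of_nonneg_left h2 (Nat.cast_nonneg _)
        _ = K := mul_one _
    have h1 := sum_walk_le g Y (Real.sqrt_nonneg K) hY hT
    refine le_trans ?_ h1
    have h2 : ∀ z : α → Fin K, ∏ a, Y (z a) (z (g a))
        = ∏ p : Fin K × Fin K, (√((n p : ℝ) / N)) ^ (st g z p) := by
      intro z
      unfold st
      have := Finset.prod_fiberwise' (univ : Finset α) (fun a => (z a, z (g a)))
        (fun p : Fin K × Fin K => √((n p : ℝ) / N))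
      rw [← this]
      apply Finset.prod_congr rfl
      intro p _
      rw [Finset.prod_const]
    have h3 : (S g n : ℝ) * ∏ p, (√((n p : ℝ) / N)) ^ (n p)
        = ∑ z ∈ univ.filter (fun z : α → Fin K => st g z = n), ∏ a, Y (z a) (z (g a)) := by
      unfold S
      rw [← nsmul_eq_mul, ← Finset.sum_const]
      apply Finset.sum_congr rfl
      intro z hz
      rw [h2 z, (Finset.mem_filter.1 hz).2]
    rw [h3]
    apply Finset.sum_le_sum_of_subset_of_nonneg (Finset.filter_subset _ _)
    intro z _ _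
    exact Finset.prod_nonneg fun a _ => Real.sqrt_nonneg _

lemma term_bound (hN : 1 ≤ Fintype.card α) (g₁ g₂ : Perm α) (n : Fin K × Fin K → ℕ)
    (hn : ∑ p, n p = Fintype.card α) :
    (S g₁ n : ℝ) * S g₂ n * ∏ p, ((n p)! : ℝ) ≤
      ((Fintype.card α)! : ℝ) * (Real.exp 1 * Fintype.card α) ^ (K ^ 2) *
        (√K) ^ (fixc g₁ + fixc g₂) := by
  set N := Fintype.card α with hNdef
  have hNpos : (0 : ℝ) < N := by exact_mod_cast hN
  have h1 := S_bound hN g₁ n
  have h2 := S_bound hN g₂ n
  have h3 := prod_fact_le n hN hn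
  rw [← hNdef] at h1 h2
  rw [Fintype.card_prod, Fintype.card_fin, ← sq] at h3
  have h4 : (S g₁ n : ℝ) * S g₂ n * ∏ p, ((n p : ℝ) / N) ^ (n p) ≤ (√K) ^ (fixc g₁ + fixc g₂) := by
    rw [pow_add]
    refine le_trans (le_of_eq ?_) (mul_le_mul h1 h2 (by positivity) (by positivity))
    have : ∏ p, ((n p : ℝ) / N) ^ (n p) = (∏ p, (√((n p : ℝ) / N)) ^ (n p)) *
        ∏ p, (√((n p : ℝ) / N)) ^ (n p) := by
      rw [← Finset.prod_mul_distrib]
      apply Finset.prod_congr rfl
      intro p _
      rw [← mul_pow, Real.mul_self_sqrt (by positivity)]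
    rw [this]
    ring
  have h5 : ∏ p, ((n p : ℝ) / N) ^ (n p) = (∏ p, (n p : ℝ) ^ (n p)) / (N : ℝ) ^ N := by
    simp_rw [div_pow]
    rw [Finset.prod_div_distrib, Finset.prod_pow_eq_pow_sum, hn]
  rw [h5] at h4
  have hNN : (0 : ℝ) < (N : ℝ) ^ N := by positivity
  have h6 : ∏ p, ((n p)! : ℝ) ≤ (Real.exp 1 * N) ^ (K ^ 2) * (N ! : ℝ) *
      ((∏ p, (n p : ℝ) ^ (n p)) / (N : ℝ) ^ N) := by
    rw [← mul_div_assoc, le_div_iff₀ hNN]
    exact h3
  calc (S g₁ n : ℝ) * S g₂ n * ∏ p, ((n p)! : ℝ)
      ≤ (S g₁ n : ℝ) * S g₂ n * ((Real.exp 1 * N) ^ (K ^ 2) * (N ! : ℝ) *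
          ((∏ p, (n p : ℝ) ^ (n p)) / (N : ℝ) ^ N)) :=
        mul_le_mul_of_nonneg_left h6 (by positivity)
    _ = ((N ! : ℝ) * (Real.exp 1 * N) ^ (K ^ 2)) *
          ((S g₁ n : ℝ) * S g₂ n * ((∏ p, (n p : ℝ) ^ (n p)) / (N : ℝ) ^ N)) := by ring
    _ ≤ ((N ! : ℝ) * (Real.exp 1 * N) ^ (K ^ 2)) * (√K) ^ (fixc g₁ + fixc g₂) :=
        mul_le_mul_of_nonneg_left h4 (by positivity)

lemma fixc_inv (g : Perm α) : fixc g⁻¹ = fixc g := by
  unfold fixc
  congr 1
  ext a
  simp only [Finset.mem_filter, Finset.mem_univ, true_and]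
  constructor
  · intro h
    rw [Perm.inv_eq_iff_eq] at h
    exact h.symm
  · intro h
    rw [Perm.inv_eq_iff_eq]
    exact h.symm

lemma sum_fix_eq (g₁ g₂ : Perm α) :
    ∑ x : Perm α, FixK K (g₁ * x * g₂ * x⁻¹) =
      ∑ z : α → Fin K, ∑ w : α → Fin K, (univ.filter fun x : Perm α =>
        (fun a => (z a, z (g₁ a))) ∘ x = fun b => (w b, w (g₂⁻¹ b))).card := by
  have h1 : ∀ x : Perm α, FixK K (g₁ * x * g₂ * x⁻¹) =
      ∑ z : α → Fin K, ∑ w : α → Fin K,
        if (fun a => (z a, z (g₁ a))) ∘ x = (fun b => (w b, w (g₂⁻¹ b))) then 1 else 0 := by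
    intro x
    unfold FixK
    rw [Fintype.card_subtype, Finset.card_filter]
    apply Finset.sum_congr rfl
    intro z _
    have h2 : ∀ w : α → Fin K, ((fun a => (z a, z (g₁ a))) ∘ x = (fun b => (w b, w (g₂⁻¹ b)))) ↔
        (w = z ∘ x ∧ ∀ a, z ((g₁ * x * g₂ * x⁻¹) a) = z a) := by
      intro w
      constructor
      · intro h
        have hw : w = z ∘ x := by
          funext b
          have := congrFun h b
          simp only [Function.comp_apply, Prod.mk.injEq] at this
          exact this.1.symm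
        refine ⟨hw, ?_⟩
        intro a
        have := congrFun h (g₂ (x⁻¹ a))
        simp only [Function.comp_apply, Prod.mk.injEq] at this
        have h3 := this.2
        rw [hw] at h3
        simpa using h3
      · rintro ⟨hw, h⟩
        funext b
        simp only [Function.comp_apply, Prod.mk.injEq]
        refine ⟨by rw [hw]; rfl, ?_⟩
        have := h (x (g₂⁻¹ b))
        rw [hw]
        simpa using this
    by_cases hz : ∀ a, z ((g₁ * x * g₂ * x⁻¹) a) = z a
    · rw [if_pos hz]
      symm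
      rw [Finset.sum_eq_single (z ∘ x)]
      · rw [if_pos ((h2 _).2 ⟨rfl, hz⟩)]
      · intro w _ hw
        rw [if_neg]
        intro h
        exact hw ((h2 w).1 h).1
      · intro h; exact absurd (Finset.mem_univ _) h
    · rw [if_neg hz]
      symm
      apply Finset.sum_eq_zero
      intro w _
      rw [if_neg]
      intro h
      exact hz ((h2 w).1 h).2
  simp_rw [h1]
  rw [Finset.sum_comm]
  apply Finset.sum_congr rfl
  intro z _
  rw [Finset.sum_comm]
  apply Finset.sum_congr rfl
  intro w _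
  rw [Finset.card_filter]

/-- The colouring lemma. -/
theorem colouring (hN : 1 ≤ Fintype.card α) (K : ℕ) (g₁ g₂ : Perm α) :
    ∑ x : Perm α, (FixK K (g₁ * x * g₂ * x⁻¹) : ℝ) ≤
      ((Fintype.card α)! : ℝ) *
        (Real.exp 1 * Fintype.card α * (Fintype.card α + 1)) ^ (K ^ 2) *
        (√K) ^ (fixc g₁ + fixc g₂) := by
  set N := Fintype.card α with hNdef
  have hbound : ∀ (g : Perm α) (z : α → Fin K),
      st g z ∈ Fintype.piFinset (fun _ : Fin K × Fin K => Finset.range (N + 1)) := by
    intro g z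
    rw [Fintype.mem_piFinset]
    intro p
    rw [Finset.mem_range, Nat.lt_succ_iff, hNdef]
    exact Finset.card_le_univ _
  have h1 : (∑ x : Perm α, FixK K (g₁ * x * g₂ * x⁻¹)) ≤
      ∑ n ∈ (Fintype.piFinset (fun _ : Fin K × Fin K => Finset.range (N + 1))).filter
        (fun n => ∑ p, n p = N), S g₁ n * S g₂⁻¹ n * ∏ p, (n p)! := by
    rw [sum_fix_eq]
    calc ∑ z : α → Fin K, ∑ w : α → Fin K, (univ.filter fun x : Perm α =>
        (fun a => (z a, z (g₁ a))) ∘ x = fun b => (w b, w (g₂⁻¹ b))).card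
        ≤ ∑ z : α → Fin K, ∑ w : α → Fin K,
            if st g₁ z = st g₂⁻¹ w then ∏ p, (st g₁ z p)! else 0 := by
          apply Finset.sum_le_sum
          intro z _
          apply Finset.sum_le_sum
          intro w _
          refine (card_comp_le _ _).trans (le_of_eq ?_)
          have : (∀ p, (univ.filter fun a => (z a, z (g₁ a)) = p).card =
              (univ.filter fun a => (w a, w (g₂⁻¹ a)) = p).card) ↔ st g₁ z = st g₂⁻¹ w := by
            constructor
            · intro h; funext p; exact h p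
            · intro h p; exact congrFun h p
          simp only [this]
          rfl
      _ = ∑ z : α → Fin K, ∑ w : α → Fin K,
            ∑ n ∈ (Fintype.piFinset (fun _ : Fin K × Fin K => Finset.range (N + 1))).filter
              (fun n => ∑ p, n p = N),
              if st g₁ z = n ∧ st g₂⁻¹ w = n then ∏ p, (n p)! else 0 := by
          apply Finset.sum_congr rfl
          intro z _
          apply Finset.sum_congr rfl
          intro w _
          rw [Finset.sum_eq_single (st g₁ z)]
          · by_cases h : st g₁ z = st g₂⁻¹ w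
            · rw [if_pos h, if_pos ⟨rfl, h.symm⟩]
            · rw [if_neg h, if_neg]
              rintro ⟨_, h'⟩
              exact h h'.symm
          · intro n _ hn
            rw [if_neg]
            rintro ⟨h', _⟩
            exact hn h'.symm
          · intro h
            exact absurd (Finset.mem_filter.2 ⟨hbound g₁ z, st_sum g₁ z⟩) h
      _ = ∑ n ∈ (Fintype.piFinset (fun _ : Fin K × Fin K => Finset.range (N + 1))).filter
              (fun n => ∑ p, n p = N), S g₁ n * S g₂⁻¹ n * ∏ p, (n p)! := by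
          simp_rw [Finset.sum_comm (s := (univ : Finset (α → Fin K)))
            (t := (Fintype.piFinset (fun _ : Fin K × Fin K => Finset.range (N + 1))).filter
              (fun n => ∑ p, n p = N))]
          apply Finset.sum_congr rfl
          intro n _
          unfold S
          rw [Finset.card_filter, Finset.card_filter, Finset.sum_mul_sum, Finset.sum_mul]
          apply Finset.sum_congr rfl
          intro z _
          rw [Finset.sum_mul]
          apply Finset.sum_congr rfl
          intro w _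
          by_cases ha : st g₁ z = n <;> by_cases hb : st g₂⁻¹ w = n <;> simp [ha, hb]
  have h2 : (∑ x : Perm α, (FixK K (g₁ * x * g₂ * x⁻¹) : ℝ)) ≤
      ∑ n ∈ (Fintype.piFinset (fun _ : Fin K × Fin K => Finset.range (N + 1))).filter
        (fun n => ∑ p, n p = N), ((S g₁ n : ℝ) * S g₂⁻¹ n * ∏ p, ((n p)! : ℝ)) := by
    exact_mod_cast h1
  refine h2.trans ?_
  have h3 : ∀ n ∈ (Fintype.piFinset (fun _ : Fin K × Fin K => Finset.range (N + 1))).filter
        (fun n => ∑ p, n p = N), ((S g₁ n : ℝ) * S g₂⁻¹ n * ∏ p, ((n p)! : ℝ)) ≤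
      (N ! : ℝ) * (Real.exp 1 * N) ^ (K ^ 2) * (√K) ^ (fixc g₁ + fixc g₂) := by
    intro n hn
    have := term_bound hN g₁ g₂⁻¹ n (Finset.mem_filter.1 hn).2
    rw [fixc_inv] at this
    exact this
  refine (Finset.sum_le_card_nsmul _ _ _ h3).trans ?_
  rw [nsmul_eq_mul]
  have h4 : (((Fintype.piFinset (fun _ : Fin K × Fin K => Finset.range (N + 1))).filter
        (fun n => ∑ p, n p = N)).card : ℝ) ≤ ((N : ℝ) + 1) ^ (K ^ 2) := by
    have h5 : ((Fintype.piFinset (fun _ : Fin K × Fin K => Finset.range (N + 1))).filter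
        (fun n => ∑ p, n p = N)).card ≤ (N + 1) ^ (K ^ 2) := by
      refine (Finset.card_filter_le _ _).trans ?_
      rw [Fintype.card_piFinset, Finset.prod_const, Finset.card_univ, Finset.card_range,
        Fintype.card_prod, Fintype.card_fin, ← sq]
    exact_mod_cast h5
  calc _ ≤ ((N : ℝ) + 1) ^ (K ^ 2) *
        ((N ! : ℝ) * (Real.exp 1 * N) ^ (K ^ 2) * (√K) ^ (fixc g₁ + fixc g₂)) :=
        mul_le_mul_of_nonneg_right h4 (by positivity)
    _ = _ := by
        rw [show Real.exp 1 * (N : ℝ) * ((N : ℝ) + 1) = (Real.exp 1 * N) * ((N : ℝ) + 1) by ring,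
          mul_pow (Real.exp 1 * (N : ℝ)) ((N : ℝ) + 1)]
        ring

end count

end Vale.Agent.P162.H561
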