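import Mathlib
import Vale.Agent.P162.Defs
import Vale.Agent.P162.H561.Colour

/-!
# P162, stage 2, part (C): the colouring bound for a class function `q` with few fixed points

`∑_h (q*q)(h) FixK K h ≤ (e N (N+1))^(K^2) * ((1 + (√K - 1) Λ)^N)^2` if
`q(g fixes S pointwise) ≤ Λ^|S|` for all `S`.
-/

open Finset Equiv Nat

namespace Vale.Agent.P162.H561

variable {α : Type*} [Fintype α] [DecidableEq α]

/-- `∑ q(g) t^(number of fixed points) ≤ (1 + (t-1) Λ)^N`. -/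
theorem sum_pow_fixc_le (q : Perm α → ℝ) {Λ : ℝ}
    (hΛ : ∀ S : Finset α, ∑ g ∈ univ.filter (fun g : Perm α => ∀ a ∈ S, g a = a), q g
      ≤ Λ ^ S.card) {t : ℝ} (ht : 1 ≤ t) :
    ∑ g, q g * t ^ fixc g ≤ (1 + (t - 1) * Λ) ^ Fintype.card α := by
  have h1 : ∀ g : Perm α, t ^ fixc g =
      ∑ S : Finset α, if (∀ a ∈ S, g a = a) then (t - 1) ^ S.card else 0 := by
    intro g
    have e1 : (univ : Finset (Finset α)).filter (fun S => ∀ a ∈ S, g a = a)
        = (univ.filter fun a => g a = a).powerset := by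
      ext S
      simp [Finset.subset_iff]
    rw [← Finset.sum_filter, e1]
    have := Finset.sum_pow_mul_eq_add_pow (t - 1) 1 (univ.filter fun a => g a = a)
    simp only [one_pow, mul_one, sub_add_cancel] at this
    rw [this]
    rfl
  simp_rw [h1, Finset.mul_sum]
  rw [Finset.sum_comm]
  have h2 : ∀ S : Finset α, ∑ g : Perm α, q g *
      (if (∀ a ∈ S, g a = a) then (t - 1) ^ S.card else 0) ≤ ((t - 1) * Λ) ^ S.card := by
    intro S
    have e2 : ∀ g : Perm α, q g * (if (∀ a ∈ S, g a = a) then (t - 1) ^ S.card else 0)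
        = (if (∀ a ∈ S, g a = a) then q g else 0) * (t - 1) ^ S.card := by
      intro g
      split_ifs <;> ring
    simp_rw [e2]
    rw [← Finset.sum_mul, ← Finset.sum_filter, mul_comm, mul_pow]
    exact mul_le_mul_of_nonneg_left (hΛ S) (pow_nonneg (by linarith) _)
  refine (Finset.sum_le_sum fun S _ => h2 S).trans (le_of_eq ?_)
  have h3 := Finset.sum_pow_mul_eq_add_pow ((t - 1) * Λ) 1 (univ : Finset α)
  simp only [one_pow, mul_one, Finset.powerset_univ, Finset.card_univ] at h3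
  rw [h3, add_comm]

/-- The colouring bound, double sum form. -/
theorem sum_sum_fix_le (hN : 1 ≤ Fintype.card α) {K : ℕ} (hK : 1 ≤ K) (q : Perm α → ℝ)
    (hq0 : ∀ g, 0 ≤ q g) (hcl : ∀ x g, q (x * g * x⁻¹) = q g) {Λ : ℝ}
    (hΛ : ∀ S : Finset α, ∑ g ∈ univ.filter (fun g : Perm α => ∀ a ∈ S, g a = a), q g
      ≤ Λ ^ S.card) :
    ∑ g₁, ∑ g₂, q g₁ * q g₂ * FixK K (g₁ * g₂) ≤
      (Real.exp 1 * Fintype.card α * (Fintype.card α + 1)) ^ (K ^ 2) *
        ((1 + (√K - 1) * Λ) ^ Fintype.card α) ^ 2 := by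
  set N := Fintype.card α with hNdef
  have ht : 1 ≤ √(K : ℝ) := by
    rw [Real.one_le_sqrt]; exact_mod_cast hK
  have hF := sum_pow_fixc_le q hΛ ht
  rw [← hNdef] at hF
  have hNpos : (0 : ℝ) < (N ! : ℝ) := by positivity
  have hcardP : (Fintype.card (Perm α) : ℝ) = (N ! : ℝ) := by
    rw [Fintype.card_perm]
  -- average over conjugations
  have h1 : ∀ x : Perm α, ∑ g₁, ∑ g₂, q g₁ * q g₂ * (FixK K (g₁ * g₂) : ℝ)
      = ∑ g₁, ∑ g₂, q g₁ * q g₂ * (FixK K (g₁ * x * g₂ * x⁻¹) : ℝ) := by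
    intro x
    apply Finset.sum_congr rfl
    intro g₁ _
    symm
    apply Fintype.sum_equiv (MulAut.conj x).toEquiv
    intro g₂
    simp only [MulEquiv.toEquiv_eq_coe, EquivLike.coe_coe, MulAut.conj_apply]
    rw [hcl]
    simp only [mul_assoc]
  have h2 : (N ! : ℝ) * ∑ g₁, ∑ g₂, q g₁ * q g₂ * (FixK K (g₁ * g₂) : ℝ)
      = ∑ g₁, ∑ g₂, q g₁ * q g₂ * ∑ x : Perm α, (FixK K (g₁ * x * g₂ * x⁻¹) : ℝ) := by
    rw [← hcardP, ← nsmul_eq_mul, ← Finset.card_univ, ← Finset.sum_const]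
    rw [Finset.sum_congr rfl (fun x _ => h1 x), Finset.sum_comm]
    apply Finset.sum_congr rfl
    intro g₁ _
    rw [Finset.sum_comm]
    apply Finset.sum_congr rfl
    intro g₂ _
    rw [Finset.mul_sum]
  set C := (Real.exp 1 * (N : ℝ) * ((N : ℝ) + 1)) ^ (K ^ 2) with hC
  have hC0 : 0 ≤ C := by positivity
  have h3 : (N ! : ℝ) * ∑ g₁, ∑ g₂, q g₁ * q g₂ * (FixK K (g₁ * g₂) : ℝ)
      ≤ (N ! : ℝ) * (C * (∑ g, q g * (√K) ^ fixc g) ^ 2) := by
    rw [h2]
    calc ∑ g₁, ∑ g₂, q g₁ * q g₂ * ∑ x : Perm α, (FixK K (g₁ * x * g₂ * x⁻¹) : ℝ)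
        ≤ ∑ g₁, ∑ g₂, q g₁ * q g₂ * ((N ! : ℝ) * C * (√K) ^ (fixc g₁ + fixc g₂)) := by
          apply Finset.sum_le_sum
          intro g₁ _
          apply Finset.sum_le_sum
          intro g₂ _
          exact mul_le_mul_of_nonneg_left (colouring hN K g₁ g₂) (mul_nonneg (hq0 _) (hq0 _))
      _ = (N ! : ℝ) * (C * (∑ g, q g * (√K) ^ fixc g) ^ 2) := by
          rw [sq, Finset.sum_mul_sum, Finset.mul_sum, Finset.mul_sum]
          apply Finset.sum_congr rfl
          intro g₁ _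
          rw [Finset.mul_sum, Finset.mul_sum]
          apply Finset.sum_congr rfl
          intro g₂ _
          rw [pow_add]
          ring
  have h4 := le_of_mul_le_mul_left h3 hNpos
  refine h4.trans ?_
  apply mul_le_mul_of_nonneg_left _ hC0
  apply pow_le_pow_left₀ _ hF
  exact Finset.sum_nonneg fun g _ => mul_nonneg (hq0 g) (by positivity)

/-- The colouring bound, convolution form. -/
theorem sum_conv_fix_le (hN : 1 ≤ Fintype.card α) {K : ℕ} (hK : 1 ≤ K) (q : Perm α → ℝ)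
    (hq0 : ∀ g, 0 ≤ q g) (hcl : ∀ x g, q (x * g * x⁻¹) = q g) {Λ : ℝ}
    (hΛ : ∀ S : Finset α, ∑ g ∈ univ.filter (fun g : Perm α => ∀ a ∈ S, g a = a), q g
      ≤ Λ ^ S.card) :
    ∑ h, conv q q h * FixK K h ≤
      (Real.exp 1 * Fintype.card α * (Fintype.card α + 1)) ^ (K ^ 2) *
        ((1 + (√K - 1) * Λ) ^ Fintype.card α) ^ 2 := by
  refine le_trans (le_of_eq ?_) (sum_sum_fix_le hN hK q hq0 hcl hΛ)
  unfold conv
  simp_rw [Finset.sum_mul]
  rw [Finset.sum_comm]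
  apply Finset.sum_congr rfl
  intro g₁ _
  apply Fintype.sum_equiv (Equiv.mulLeft g₁⁻¹)
  intro h
  simp

/-- The same bound with an exponential. -/
theorem sum_conv_fix_le_exp (hN : 1 ≤ Fintype.card α) {K : ℕ} (hK : 1 ≤ K) (q : Perm α → ℝ)
    (hq0 : ∀ g, 0 ≤ q g) (hcl : ∀ x g, q (x * g * x⁻¹) = q g) {Λ : ℝ} (hΛ0 : 0 ≤ Λ)
    (hΛ : ∀ S : Finset α, ∑ g ∈ univ.filter (fun g : Perm α => ∀ a ∈ S, g a = a), q g
      ≤ Λ ^ S.card) :
    ∑ h, conv q q h * FixK K h ≤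
      (Real.exp 1 * Fintype.card α * (Fintype.card α + 1)) ^ (K ^ 2) *
        Real.exp (2 * √K * Λ * Fintype.card α) := by
  refine (sum_conv_fix_le hN hK q hq0 hcl hΛ).trans ?_
  apply mul_le_mul_of_nonneg_left _ (by positivity)
  have ht : 1 ≤ √(K : ℝ) := by
    rw [Real.one_le_sqrt]; exact_mod_cast hK
  have h1 : 1 + (√(K : ℝ) - 1) * Λ ≤ Real.exp (√K * Λ) := by
    have := Real.add_one_le_exp (√K * Λ)
    nlinarith
  have h0 : 0 ≤ 1 + (√(K : ℝ) - 1) * Λ := by nlinarith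
  calc ((1 + (√(K : ℝ) - 1) * Λ) ^ Fintype.card α) ^ 2
      ≤ ((Real.exp (√K * Λ)) ^ Fintype.card α) ^ 2 :=
        pow_le_pow_left₀ (pow_nonneg h0 _) (pow_le_pow_left₀ h0 h1 _) _
    _ = Real.exp (2 * √K * Λ * Fintype.card α) := by
        rw [← pow_mul, ← Real.exp_nat_mul]
        congr 1
        push_cast
        ring

/-- `FixK K h` is `K` to the number of cycles (a lower bound is all that is needed):
`FixK` is a class function. -/
lemma FixK_conj (K : ℕ) (x h : Perm α) : FixK K (x * h * x⁻¹) = FixK K h := by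
  unfold FixK
  apply Fintype.card_congr
  refine Equiv.subtypeEquiv (Equiv.arrowCongr x.symm (Equiv.refl _)) ?_
  intro z
  constructor
  · intro hz a
    have := hz (x a)
    simpa [Equiv.arrowCongr] using this
  · intro hz a
    have := hz (x⁻¹ a)
    simpa [Equiv.arrowCongr] using this

end Vale.Agent.P162.H561
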