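import Vale.Agent.P162.S2.Iface
import Vale.Agent.P162.H561.ConvFix

/-!
# P162, stage 2: `PropC` of the interface, and the bound of `ZK`
-/

open Finset Equiv Nat

namespace Vale.Agent.P162.H561

open Vale.Agent.P162.S2.Abs

variable {α : Type*} [Fintype α] [DecidableEq α]

lemma fixK_eq (K : ℕ) (σ : Perm α) : fixK K σ = FixK K σ := by
  unfold fixK FixK
  rw [Nat.card_eq_fintype_card]

lemma fixP_eq (σ : Perm α) : fixP σ = fixc σ := by
  unfold fixP fixc
  rw [Nat.card_eq_fintype_card, Fintype.card_subtype]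

/-- (C), the colouring lemma. -/
theorem propC : PropC := by
  intro α _ _ K g₁ g₂ hK hN
  have h := colouring (α := α) hN K g₁ g₂
  have hK0 : (0 : ℝ) ≤ (K : ℝ) := Nat.cast_nonneg _
  have e1 : (√(K : ℝ)) ^ (fixc g₁ + fixc g₂) = (K : ℝ) ^ (((fixP g₁ : ℝ) + fixP g₂) / 2) := by
    rw [Real.sqrt_eq_rpow, ← Real.rpow_natCast, ← Real.rpow_mul hK0, fixP_eq, fixP_eq]
    congr 1
    push_cast
    ring
  rw [Fintype.card_perm, div_le_iff₀ (by positivity), ← e1]
  simp_rw [fixK_eq]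
  refine h.trans (le_of_eq ?_)
  ring

/-- The bound of `ZK` for `Data`. -/
theorem ZK_le {q : Perm α → ℝ} {κ : ℝ} (hq : Data q κ) (hN : 0 < Fintype.card α) {K : ℕ}
    (hK : 0 < K) :
    ZK q K ≤ (Real.exp 1 * Fintype.card α * (Fintype.card α + 1)) ^ (K ^ 2) *
      Real.exp (2 * √K * (Fintype.card α : ℝ) ^ (1 - κ)) := by
  have h := sum_conv_fix_le_exp (α := α) hN hK q hq.nonneg hq.class_fn
    (Λ := (Fintype.card α : ℝ) ^ (-κ)) (by positivity) hq.fix_le
  have hN0 : (0 : ℝ) < (Fintype.card α : ℝ) := by exact_mod_cast hN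
  have e1 : 2 * √(K : ℝ) * (Fintype.card α : ℝ) ^ (-κ) * Fintype.card α =
      2 * √K * (Fintype.card α : ℝ) ^ (1 - κ) := by
    rw [sub_eq_neg_add, Real.rpow_add hN0, Real.rpow_one]
    ring
  rw [e1] at h
  refine le_trans (le_of_eq ?_) h
  unfold ZK conv
  simp_rw [Finset.sum_mul, fixK_eq]
  symm
  rw [Finset.sum_comm]
  apply Finset.sum_congr rfl
  intro g₁ _
  apply Fintype.sum_equiv (Equiv.mulLeft g₁⁻¹)
  intro h
  simp

end Vale.Agent.P162.H561
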